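import Vale.Agent.P192.R2.H360.R.Defs

set_option linter.all false

/-! (R5a) from (R2): a segment of a geodesic. -/

namespace Vale.Agent.P192.R2.H360.R

open SimpleGraph Vale.Agent.P192 Vale.Agent.P192.H437 Vale.Agent.P192.H593 Vale.Agent.P192.R2.H577

universe u v

theorem sep_step920 (a b c : Prop) (h : (a ∧ ¬c) ∨ (¬a ∧ c)) (h5 : ¬((a ∧ ¬b) ∨ (¬a ∧ b))) :
    (b ∧ ¬c) ∨ (¬b ∧ c) := by
  tauto

theorem sep_two920 (x y a b : Prop) (h1 : (a ∧ ¬b) ∨ (¬a ∧ b)) (h2 : ¬((x ∧ ¬y) ∨ (¬x ∧ y)))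
    (h3 : ¬((x ∧ ¬a) ∨ (¬x ∧ a))) : (b ∧ ¬y) ∨ (¬b ∧ y) := by
  tauto

theorem r5a : R2.{u, v} → R5a.{u, v} := by
  intro h2 G _ _ hG S hS K
  obtain ⟨M0, hM0⟩ := h2 G hG S hS K
  refine ⟨M0 + 1, ?_⟩
  intro X _ _ x y
  haveI : Nonempty X := ⟨x⟩
  have hc := sch_connected (X := X) hS
  obtain ⟨p, hp⟩ := hc.exists_walk_length_eq_dist x y
  obtain ⟨N0, hN0⟩ : ∃ N0, N0 = (sch S X).dist x y := ⟨_, rfl⟩
  rw [← hN0] at hp
  obtain ⟨f, hf⟩ : ∃ f : ℕ → X, f = p.getVert := ⟨_, rfl⟩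
  have hf0 : f 0 = x := by rw [hf]; exact p.getVert_zero
  have hfN : f N0 = y := by rw [hf, ← hp]; exact p.getVert_length
  have hadj : ∀ i, i < N0 → (sch S X).Adj (f i) (f (i + 1)) := by
    intro i hi
    rw [hf]
    exact p.adj_getVert_succ (by omega)
  have hd1 : ∀ k i, i + k ≤ N0 → (sch S X).dist (f i) (f (i + k)) ≤ k := by
    intro k
    induction k with
    | zero => intro i _; simp
    | succ k ih =>
      intro i hi
      have h1 := ih i (by omega)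
      have h3 : (sch S X).dist (f (i + k)) (f (i + k + 1)) ≤ 1 := by
        rw [dist_eq_one_iff_adj.2 (hadj (i + k) (by omega))]
      have h4 := hc.dist_triangle (u := f i) (v := f (i + k)) (w := f (i + k + 1))
      rw [← add_assoc]
      omega
  have hd : ∀ i j, i ≤ j → j ≤ N0 → (sch S X).dist (f i) (f j) = j - i := by
    intro i j hij hj
    have a1 := hd1 i 0 (by omega)
    have a2 := hd1 (j - i) i (by omega)
    have a3 := hd1 (N0 - j) j (by omega)
    rw [zero_add] at a1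
    rw [Nat.add_sub_cancel' hij] at a2
    rw [Nat.add_sub_cancel' hj] at a3
    have t1 := hc.dist_triangle (u := f 0) (v := f i) (w := f N0)
    have t2 := hc.dist_triangle (u := f i) (v := f j) (w := f N0)
    have t3 : (sch S X).dist (f 0) (f N0) = N0 := by rw [hf0, hfN, ← hN0]
    omega
  -- crossing
  have hcross : ∀ (D : Set X) (k i : ℕ), i + k ≤ N0 →
      ((f i ∈ D ∧ f (i + k) ∉ D) ∨ (f i ∉ D ∧ f (i + k) ∈ D)) →
      ∃ t, i ≤ t ∧ t ≤ i + k ∧ f t ∈ fb S D := by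
    intro D k
    induction k with
    | zero =>
      intro i _ h
      rcases h with h | h
      · exact absurd h.1 h.2
      · exact absurd h.2 h.1
    | succ k ih =>
      intro i hi h
      by_cases h5 : (f i ∈ D ∧ f (i + k) ∉ D) ∨ (f i ∉ D ∧ f (i + k) ∈ D)
      · obtain ⟨t, h6, h7, h8⟩ := ih i (by omega) h5
        exact ⟨t, h6, by omega, h8⟩
      · refine ⟨i + k, by omega, by omega, ?_⟩
        obtain ⟨-, s, hs, he⟩ := hadj (i + k) (by omega)
        refine ⟨s, hs, ?_⟩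
        rw [he]
        rw [← add_assoc] at h
        exact sep_step920 _ _ _ h h5
  have hcross' : ∀ (D : Set X) (i j : ℕ), i ≤ j → j ≤ N0 →
      ((f i ∈ D ∧ f j ∉ D) ∨ (f i ∉ D ∧ f j ∈ D)) →
      ∃ t, i ≤ t ∧ t ≤ j ∧ f t ∈ fb S D := by
    intro D i j hij hj h
    have e : i + (j - i) = j := by omega
    have := hcross D (j - i) i (by omega)
    rw [e] at this
    exact this h
  -- close
  have hclose : ∀ (s t : ℕ), s ≤ N0 → t ≤ N0 → ∀ c : ℕ, (sch S X).dist (f s) (f t) ≤ c →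
      s ≤ t + c ∧ t ≤ s + c := by
    intro s t hs ht c h
    rcases le_total s t with h1 | h1
    · rw [hd s t h1 ht] at h; omega
    · rw [SimpleGraph.dist_comm, hd t s h1 hs] at h; omega
  obtain ⟨N1, hN1⟩ : ∃ N1, N1 = N0 / (M0 + 1) := ⟨_, rfl⟩
  have hN1' : (M0 + 1) * N1 ≤ N0 := by rw [hN1]; exact Nat.mul_div_le _ _
  have hkN : ∀ k : Fin (M0 + 1), ((k : ℕ) + 1) * N1 ≤ N0 := by
    intro k
    exact le_trans (Nat.mul_le_mul_right _ (by omega)) hN1'
  have key : ∃ k : Fin (M0 + 1), ∀ D : Set X, (fb S D).encard ≤ K →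
      (∀ u ∈ fb S D, ∀ v ∈ fb S D, hop S K u v) → ((x ∈ D ∧ y ∉ D) ∨ (x ∉ D ∧ y ∈ D)) →
      ∃ s ≤ N0, f s ∈ fb S D ∧ (s ≤ (k : ℕ) * N1 + K ∨ ((k : ℕ) + 1) * N1 ≤ s + K) := by
    by_contra hcon
    push Not at hcon
    choose D h3 h4 h5 h6 using hcon
    have hdisj : ∀ i j : Fin (M0 + 1), i < j → Disjoint (fb S (D i)) (fb S (D j)) := by
      intro i j hij
      rw [Set.disjoint_left]
      intro w hwi hwj
      obtain ⟨ti, -, hti, hti'⟩ := hcross' (D i) 0 N0 (by omega) le_rfl (by rw [hf0, hfN]; exact h5 i)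
      obtain ⟨tj, -, htj, htj'⟩ := hcross' (D j) 0 N0 (by omega) le_rfl (by rw [hf0, hfN]; exact h5 j)
      have q1 := (hop_iff hc).1 (h4 i _ hti' _ hwi)
      have q2 := (hop_iff hc).1 (h4 j _ hwj _ htj')
      have q3 := hc.dist_triangle (u := f ti) (v := w) (w := f tj)
      have q4 := hclose ti tj hti htj (K + K) (by omega)
      have r1 := h6 i ti hti hti'
      have r2 := h6 j tj htj htj'
      have r3 : ((i : ℕ) + 1) * N1 ≤ (j : ℕ) * N1 := Nat.mul_le_mul_right _ (by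
        have : (i : ℕ) < j := hij
        omega)
      omega
    have := hM0 X x y (M0 + 1) D h5 h3 (by
      intro i j hij
      rcases lt_or_gt_of_ne hij with h | h
      · exact hdisj i j h
      · exact (hdisj j i h).symm)
    omega
  obtain ⟨k, hk⟩ := key
  refine ⟨f (k * N1), f ((k + 1) * N1), ?_, ?_⟩
  · have hle : (k : ℕ) * N1 ≤ ((k : ℕ) + 1) * N1 := Nat.mul_le_mul_right _ (by omega)
    rw [hd _ _ hle (hkN k), ← hN0]
    have e : ((k : ℕ) + 1) * N1 - k * N1 = N1 := by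
      rw [Nat.add_mul, one_mul]; omega
    rw [e, hN1]
    have := Nat.lt_mul_div_succ N0 (show 0 < M0 + 1 by omega)
    exact this.le
  · intro D hD1 hD2 hD3
    have hle : (k : ℕ) * N1 ≤ ((k : ℕ) + 1) * N1 := Nat.mul_le_mul_right _ (by omega)
    have hkk := hkN k
    obtain ⟨t, ht1, ht2, ht3⟩ := hcross' D _ _ hle hkk hD3
    have fin : ∀ s ≤ N0, f s ∈ fb S D → (s ≤ (k : ℕ) * N1 + K ∨ ((k : ℕ) + 1) * N1 ≤ s + K) →
        ∃ v ∈ fb S D, hop S (2 * K) (f (k * N1)) v ∨ hop S (2 * K) (f ((k + 1) * N1)) v := by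
      intro s hs hs' h
      refine ⟨f t, ht3, ?_⟩
      have q := hclose s t hs (by omega) K ((hop_iff hc).1 (hD2 _ hs' _ ht3))
      rcases h with h | h
      · left
        rw [hop_iff hc, hd _ _ ht1 (by omega)]
        omega
      · right
        rw [hop_iff hc, SimpleGraph.dist_comm, hd _ _ ht2 hkk]
        omega
    by_cases hxy : (x ∈ D ∧ y ∉ D) ∨ (x ∉ D ∧ y ∈ D)
    · obtain ⟨s, hs, hs', h⟩ := hk D hD1 hD2 hxy
      exact fin s hs hs' h
    · by_cases hxa : (f 0 ∈ D ∧ f (k * N1) ∉ D) ∨ (f 0 ∉ D ∧ f (k * N1) ∈ D)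
      · obtain ⟨s, -, hs, hs'⟩ := hcross' D 0 (k * N1) (by omega) (by omega) hxa
        exact fin s (by omega) hs' (Or.inl (by omega))
      · have hyb : (f ((k + 1) * N1) ∈ D ∧ f N0 ∉ D) ∨ (f ((k + 1) * N1) ∉ D ∧ f N0 ∈ D) := by
          rw [hf0] at hxa
          rw [hfN]
          exact sep_two920 _ _ _ _ hD3 hxy hxa
        obtain ⟨s, hs, hs1, hs'⟩ := hcross' D _ N0 hkk le_rfl hyb
        exact fin s hs1 hs' (Or.inr (by omega))

end Vale.Agent.P192.R2.H360.R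

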